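import Vale.Agent.P004.R2.H880.AllY
import Vale.Agent.P004H.H666.Iso3

/-!
# P004: exponentially decreasing tails of the analytic rank in the families of quadratic twists of
the elliptic curves over `ℚ` with `j = 0`, `j = 1728` or `j` one of the three `j`-invariants of
conductor `11`
-/

namespace Vale.Agent.Results.P004.ExponentialTail

/-- `D` is a fundamental discriminant, `D ≠ 1` -/
def IsFundDisc (D : ℤ) : Prop :=
  D ≠ 1 ∧ ((D % 4 = 1 ∧ Squarefree D) ∨
    ∃ d : ℤ, D = 4 * d ∧ (d % 4 = 2 ∨ d % 4 = 3) ∧ Squarefree d)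

open scoped Classical in
/-- the fundamental discriminants `D ≠ 1` with `|D| ≤ X` -/
noncomputable def Family (X : ℕ) : Finset ℤ := (Finset.Icc (-(X : ℤ)) X).filter IsFundDisc

/-- the twist `D y² = x³ + a x + b`, written as `y² = x³ + a D² x + b D³` -/
noncomputable def twist (a b D : ℤ) : WeierstrassCurve ℚ :=
  ⟨0, 0, 0, ((a * D ^ 2 : ℤ) : ℚ), ((b * D ^ 3 : ℤ) : ℚ)⟩

/-- `L` is entire, and for `Re s > 3/2` it is the sum of the Dirichlet series of Mathlib's
`L`-function of the twist -/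
def IsLFun (a b D : ℤ) (L : ℂ → ℂ) : Prop :=
  Differentiable ℂ L ∧ ∀ s : ℂ, 3 / 2 < s.re →
    LSeriesHasSum (fun n => ((twist a b D).LFunction n : ℂ)) s (L s)

open scoped Classical in
/-- the analytic rank of the twist: the order of vanishing at `s = 1` of its entire
`L`-function -/
noncomputable def rank (a b D : ℤ) : ℕ :=
  if h : ∃ L, IsLFun a b D L then analyticOrderNatAt h.choose 1 else 0

open scoped Classical in
/-- the number of `D ∈ Family X` for which the twist has analytic rank at least `z` -/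
noncomputable def countGe (a b : ℤ) (z : ℝ) (X : ℕ) : ℕ :=
  ((Family X).filter (fun D => z ≤ (rank a b D : ℝ))).card

/-- the `j`-invariant of `y² = x³ + a x + b` -/
def jInv (a b : ℤ) : ℚ := 6912 * (a : ℚ) ^ 3 / (4 * (a : ℚ) ^ 3 + 27 * (b : ℚ) ^ 2)

/-- the `j`-invariant is `0`, `1728` or that of a curve of conductor `11` -/
def Five (a b : ℤ) : Prop :=
  jInv a b = 0 ∨ jInv a b = 1728 ∨ jInv a b = -122023936 / 161051 ∨
    jInv a b = -52893159101157376 / 11 ∨ jInv a b = -4096 / 11

/-! ### comparison with the definitions used in the proofs -/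

theorem family_eq (X : ℕ) : Family X = _root_.P004.Fam X := rfl

theorem rank_eq (a b D : ℤ) : rank a b D = _root_.P004G.aRk a b D := rfl

theorem modl_of {a b : ℤ} (hd : 4 * a ^ 3 + 27 * b ^ 2 ≠ 0) (h : Five a b) :
    _root_.P004G.Modl a b := by
  have hq : (4 * (a : ℚ) ^ 3 + 27 * (b : ℚ) ^ 2) ≠ 0 := by exact_mod_cast hd
  unfold Five jInv at h
  rcases h with h | h | h | h | h
  · rw [div_eq_zero_iff] at h
    have ha : a = 0 := by
      rcases h with h | h
      · have h1 : (a : ℚ) ^ 3 = 0 := by linarith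
        exact_mod_cast pow_eq_zero_iff (by norm_num : (3 : ℕ) ≠ 0) |>.1 h1
      · exact absurd h hq
    have hb : b ≠ 0 := by
      rintro rfl
      exact hd (by rw [ha]; norm_num)
    exact _root_.P004G.CMc.modl (Or.inr ⟨ha, hb⟩)
  · rw [div_eq_iff hq] at h
    have h1 : (b : ℚ) ^ 2 = 0 := by linarith
    have hb : b = 0 := by exact_mod_cast pow_eq_zero_iff (by norm_num : (2 : ℕ) ≠ 0) |>.1 h1
    have ha : a ≠ 0 := by
      rintro rfl
      exact hd (by rw [hb]; norm_num)
    exact _root_.P004G.CMc.modl (Or.inl ⟨ha, hb⟩)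
  all_goals
    refine (_root_.Vale.Agent.P004H.H666.main_JJF _root_.P004G.allMLG
      _root_.P004G.pfLent _root_.P004G.pfLparity hd ?_).1
  · left
    unfold _root_.Vale.Agent.P004H.H641.J11
    rw [div_eq_div_iff hq (by norm_num)] at h
    have h' : 6912 * a ^ 3 * 161051 = -122023936 * (4 * a ^ 3 + 27 * b ^ 2) := by exact_mod_cast h
    linarith
  · right; left
    unfold _root_.Vale.Agent.P004H.H666.J112
    rw [div_eq_div_iff hq (by norm_num)] at h
    have h' : 6912 * a ^ 3 * 11 = -52893159101157376 * (4 * a ^ 3 + 27 * b ^ 2) := by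
      exact_mod_cast h
    linarith
  · right; right
    unfold _root_.Vale.Agent.P004H.H666.J113
    rw [div_eq_div_iff hq (by norm_num)] at h
    have h' : 6912 * a ^ 3 * 11 = -4096 * (4 * a ^ 3 + 27 * b ^ 2) := by exact_mod_cast h
    linarith

theorem tail_of {a b : ℤ} (h : _root_.P004G.TailExpy a b) :
    ∃ c δ C : ℝ, 0 < c ∧ 0 < δ ∧ 0 < C ∧ ∀ X : ℕ, 3 ≤ X → ∀ z : ℝ, 0 ≤ z →
      (countGe a b z X : ℝ) ≤
        C * ((Family X).card : ℝ) * Real.exp (-c * min z (Real.log X ^ δ)) := by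
  obtain ⟨c, δ, C, hc, hδ, hC, h⟩ := h
  refine ⟨c, δ, C, hc, hδ, hC, fun X hX z hz => le_trans (Nat.cast_le.2 ?_) (h X hX z hz)⟩
  unfold countGe
  refine Finset.card_le_card fun D hD => ?_
  rw [Finset.mem_filter] at hD ⊢
  exact hD

/-- **Exponentially decreasing tails of the analytic rank** (unconditional). Let
`E : y² = x³ + a x + b` be an elliptic curve, `a, b ∈ ℤ`, with `j(E) = 0`, `j(E) = 1728` or `j(E)`
the `j`-invariant of one of the three curves of conductor `11`.

1. For every fundamental discriminant `D ≠ 1`, the `L`-function of `E^(D) : D y² = x³ + a x + b`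
   (Mathlib's `WeierstrassCurve.LFunction`) has a unique entire continuation, and `rank a b D` is
   its order of vanishing at `s = 1`.
2. There are `c > 0`, `δ > 0` and `C > 0` such that for all `X ≥ 3` and `z ≥ 0` the number of
   `D ∈ Family X` with `rank a b D ≥ z` is at most `C #Family X exp (-c min (z, (log X)^δ))`. -/
theorem result : ∀ a b : ℤ, 4 * a ^ 3 + 27 * b ^ 2 ≠ 0 → Five a b →
    (∀ D : ℤ, IsFundDisc D → ∃ L, IsLFun a b D L ∧ (∀ L', IsLFun a b D L' → L' = L) ∧
      analyticOrderAt L 1 = (rank a b D : ℕ∞)) ∧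
    ∃ c δ C : ℝ, 0 < c ∧ 0 < δ ∧ 0 < C ∧ ∀ X : ℕ, 3 ≤ X → ∀ z : ℝ, 0 ≤ z →
      (countGe a b z X : ℝ) ≤
        C * ((Family X).card : ℝ) * Real.exp (-c * min z (Real.log X ^ δ)) := by
  intro a b hd hj
  have hM := modl_of hd hj
  obtain ⟨h1, -, -⟩ := _root_.P004G.concl_all hd hM
  exact ⟨h1.1, tail_of (_root_.P004G.tailExpy_of (fun h => _root_.P004G.mainy h)
    _root_.P004G.pfVan1 _root_.P004G.allMLG _root_.P004G.pfLbound _root_.P004G.pfLent hd hM)⟩

end Vale.Agent.Results.P004.ExponentialTail
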