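import Vale.Agent.P004.R2.H880.Eleven
import Vale.Agent.P004H.H666.Iso3
import Vale.Agent.P004G.H503.Fin3

/-!
# P004: analytic rank `0` or `2` for a positive proportion of the quadratic twists of every elliptic
curve over `ℚ` which is isogenous to a quadratic twist of `X_0(11)`
-/

namespace Vale.Agent.Results.P004.RankZeroTwo

/-- `D` is a fundamental discriminant, `D ≠ 1` -/
def IsFundDisc (D : ℤ) : Prop :=
  D ≠ 1 ∧ ((D % 4 = 1 ∧ Squarefree D) ∨
    ∃ d : ℤ, D = 4 * d ∧ (d % 4 = 2 ∨ d % 4 = 3) ∧ Squarefree d)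

open scoped Classical in
/-- the fundamental discriminants `D ≠ 1` with `|D| ≤ X` -/
noncomputable def Family (X : ℕ) : Finset ℤ := (Finset.Icc (-(X : ℤ)) X).filter IsFundDisc

/-- the twist `D y² = x³ + a x + b`, written as `y² = x³ + a D² x + b D³` -/
noncomputable def twist (a b D : ℤ) : WeierstrassCurve ℚ :=
  ⟨0, 0, 0, ((a * D ^ 2 : ℤ) : ℚ), ((b * D ^ 3 : ℤ) : ℚ)⟩

/-- `L` is entire, and for `Re s > 3/2` it is the sum of the Dirichlet series of Mathlib's
`L`-function of the twist -/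
def IsLFun (a b D : ℤ) (L : ℂ → ℂ) : Prop :=
  Differentiable ℂ L ∧ ∀ s : ℂ, 3 / 2 < s.re →
    LSeriesHasSum (fun n => ((twist a b D).LFunction n : ℂ)) s (L s)

open scoped Classical in
/-- the analytic rank of the twist: the order of vanishing at `s = 1` of its entire
`L`-function -/
noncomputable def rank (a b D : ℤ) : ℕ :=
  if h : ∃ L, IsLFun a b D L then analyticOrderNatAt h.choose 1 else 0

open scoped Classical in
/-- the number of `D ∈ Family X` for which the twist has analytic rank `0` or `2` -/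
noncomputable def count (a b : ℤ) (X : ℕ) : ℕ :=
  ((Family X).filter (fun D => rank a b D = 0 ∨ rank a b D = 2)).card

/-- the `j`-invariant of `y² = x³ + a x + b` -/
def jInv (a b : ℤ) : ℚ := 6912 * (a : ℚ) ^ 3 / (4 * (a : ℚ) ^ 3 + 27 * (b : ℚ) ^ 2)

/-- the `j`-invariant is that of a curve of conductor `11` -/
def Eleven (a b : ℤ) : Prop :=
  jInv a b = -122023936 / 161051 ∨ jInv a b = -52893159101157376 / 11 ∨ jInv a b = -4096 / 11

/-! ### comparison with the definitions used in the proofs -/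

theorem family_eq (X : ℕ) : Family X = _root_.P004.Fam X := rfl

theorem rank_eq (a b D : ℤ) : rank a b D = _root_.P004G.aRk a b D := rfl

theorem jj_of {a b : ℤ} (hd : 4 * a ^ 3 + 27 * b ^ 2 ≠ 0) (h : Eleven a b) :
    _root_.Vale.Agent.P004H.H666.JJ a b := by
  have hq : (4 * (a : ℚ) ^ 3 + 27 * (b : ℚ) ^ 2) ≠ 0 := by exact_mod_cast hd
  unfold Eleven jInv at h
  rcases h with h | h | h
  · left
    unfold _root_.Vale.Agent.P004H.H641.J11
    rw [div_eq_div_iff hq (by norm_num)] at h
    have h' : 6912 * a ^ 3 * 161051 = -122023936 * (4 * a ^ 3 + 27 * b ^ 2) := by exact_mod_cast h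
    linarith
  · right; left
    unfold _root_.Vale.Agent.P004H.H666.J112
    rw [div_eq_div_iff hq (by norm_num)] at h
    have h' : 6912 * a ^ 3 * 11 = -52893159101157376 * (4 * a ^ 3 + 27 * b ^ 2) := by
      exact_mod_cast h
    linarith
  · right; right
    unfold _root_.Vale.Agent.P004H.H666.J113
    rw [div_eq_div_iff hq (by norm_num)] at h
    have h' : 6912 * a ^ 3 * 11 = -4096 * (4 * a ^ 3 + 27 * b ^ 2) := by exact_mod_cast h
    linarith

theorem card_family_le (X : ℕ) : ((Family X).card : ℝ) ≤ 2 * X + 1 := by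
  classical
  unfold Family
  have h := Finset.card_filter_le (Finset.Icc (-(X : ℤ)) X) IsFundDisc
  have h2 : (Finset.Icc (-(X : ℤ)) X).card = 2 * X + 1 := by
    rw [Int.card_Icc]; omega
  rw [h2] at h
  exact_mod_cast h

theorem rankTwo_of {a b e : ℤ} (he : e ≠ 0)
    (hS : _root_.Vale.Agent.P004H.H641.SameL a b (-13392 * e ^ 2) (-1080432 * e ^ 3)) :
    ∃ c : ℝ, 0 < c ∧ ∃ X₀ : ℕ, ∀ X : ℕ, X₀ ≤ X →
      c * ((Family X).card : ℝ) ≤ (count a b X : ℝ) := by
  classical
  obtain ⟨c, hc, X₀, h⟩ := _root_.P004H.Two.rank_two he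
  refine ⟨c / 3, by positivity, max X₀ 1, fun X hX => ?_⟩
  have h6 : c * (X : ℝ) ≤ (count a b X : ℝ) := by
    refine (h X ((le_max_left _ _).trans hX)).trans ?_
    unfold count
    refine Nat.cast_le.2 (Finset.card_le_card fun D hD => ?_)
    rw [Finset.mem_filter] at hD ⊢
    obtain ⟨hD1, hD2⟩ := hD
    have hD' : D ∈ Family X := hD1
    have hf : IsFundDisc D := by
      unfold Family at hD'
      exact (Finset.mem_filter.1 hD').2
    have h1 : rank a b D = _root_.P004G.aRk (-13392 * e ^ 2) (-1080432 * e ^ 3) D :=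
      hS.aRk (_root_.Vale.Agent.P004H.H641.Fund1_ne (Or.inr hf))
    refine ⟨hD', ?_⟩
    rw [h1]
    exact hD2
  have h7 := card_family_le X
  have h8 : (1 : ℝ) ≤ X := by exact_mod_cast (le_max_right _ _).trans hX
  refine le_trans ?_ h6
  have h9 : c / 3 * ((Family X).card : ℝ) ≤ c / 3 * (2 * X + 1) :=
    mul_le_mul_of_nonneg_left h7 (by positivity)
  nlinarith

/-- **Analytic rank `0` or `2` for a positive proportion of the quadratic twists** (unconditional).
Let `E : y² = x³ + a x + b` be an elliptic curve, `a, b ∈ ℤ`, with `j(E)` the `j`-invariant of one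
of the three curves of conductor `11`.

1. For every fundamental discriminant `D ≠ 1`, the `L`-function of `E^(D) : D y² = x³ + a x + b`
   (Mathlib's `WeierstrassCurve.LFunction`) has a unique entire continuation, and `rank a b D` is
   its order of vanishing at `s = 1`.
2. There are `c > 0` and `X₀` such that for all `X ≥ X₀` at least `c #Family X` of the `D` in
   `Family X` satisfy `rank a b D = 0` or `rank a b D = 2`. -/
theorem result : ∀ a b : ℤ, 4 * a ^ 3 + 27 * b ^ 2 ≠ 0 → Eleven a b →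
    (∀ D : ℤ, IsFundDisc D → ∃ L, IsLFun a b D L ∧ (∀ L', IsLFun a b D L' → L' = L) ∧
      analyticOrderAt L 1 = (rank a b D : ℕ∞)) ∧
    ∃ c : ℝ, 0 < c ∧ ∃ X₀ : ℕ, ∀ X : ℕ, X₀ ≤ X →
      c * ((Family X).card : ℝ) ≤ (count a b X : ℝ) := by
  intro a b hd hj
  have hJ := jj_of hd hj
  obtain ⟨hM, hO⟩ := _root_.Vale.Agent.P004H.H666.main_JJF _root_.P004G.allMLG
    _root_.P004G.pfLent _root_.P004G.pfLparity hd hJ
  obtain ⟨h1, h2, h3⟩ := _root_.P004G.concl_all hd hM
  obtain ⟨e, he, hS⟩ := _root_.Vale.Agent.P004H.H666.sameL_JJF hd hJ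
  exact ⟨h1.1, rankTwo_of he hS⟩

end Vale.Agent.Results.P004.RankZeroTwo
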